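import Vale.Agent.P154.X57.X57Data
import Vale.Agent.P154.R4.KForm
import Vale.Agent.P154.Q4.Cert4

/-!
# P154 q = 4: the subadditivity inequality (X4) on `T x (5/7) T`

`keyX57`: for `a` in `DT 1` and `b` in `DT (5/7)`
`avQ (KQ alQ a) b <= alQ a + alQ b - pA57 b * ps4 (7/4) a - pB57 a * ps4 ((7/4)/(5/7)) b - (1/50) (al^2 be + al be^2)`,
with `pA57 >= 0` on `DT (5/7)` and `pB57 >= 0` on `DT 1`: the fields `X4`, `p1_nonneg`, `p2_nonneg` of `Pt4 (5/7) (7/4) (1/50)`.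
-/

namespace Vale.Agent.P154.X57

open Finset Vale.Agent.Util.Polya

/-- a polynomial below `1 / (1 + z)` -/
noncomputable def qY (z : ℝ) : ℝ :=
  1 - z + z ^ 2 - z ^ 3 + 8 / 9 * z ^ 4 - 5 / 9 * z ^ 5 + 7 / 36 * z ^ 6 - 1 / 36 * z ^ 7

theorem qY_le (Z : ℝ) (hZ : 0 < Z) : qY (Z - 1) ≤ 1 / Z := by
  rw [le_div_iff₀ hZ]
  have h : qY (Z - 1) * Z = 1 - ((Z - 1) ^ 2 * (Z - 2) * (Z - 3)) ^ 2 / 36 := by
    unfold qY
    ring
  rw [h]
  have := sq_nonneg ((Z - 1) ^ 2 * (Z - 2) * (Z - 3))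
  linarith

noncomputable def phiY (u : Fin 4 → ℝ) : ℝ := 8 / 3 * e2Q u * qY (e1Q u - 1) - e1Q u

def tgtX57 : PE :=
  .add (.mul e2E (hornE zE [37436563225577521152000000000000, -37436563225577521152000000000000, 37436563225577521152000000000000, -37436563225577521152000000000000, 33276945089402241024000000000000, -20798090680876400640000000000000, 7279331738306740224000000000000, -1039904534043820032000000000000]))
    (.mul (.c (-14038711209591570432000000000000)) e1E)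

set_option maxRecDepth 100000 in
theorem chkUX57 : chkUK 128 11 9 LdX57 280 80 tgtX57 = true := by
  decide +kernel

theorem sm_LdX57 (u : Fin 4 → ℝ) :
    sm 9 LdX57 (280 * u 0) (280 * u 1) (280 * u 2) (280 * u 3) 80 = 14038711209591570432000000000000 * phiY u := by
  rw [sm_tgtUK 128 11 9 LdX57 280 80 tgtX57 chkUX57 u _ _ _ _ _ (by push_cast; ring) (by push_cast; ring)
    (by push_cast; ring) (by push_cast; ring) (by norm_num)]
  simp only [tgtX57, PE.ev, ev_hornE, ev_e1E, ev_e2E, ev_zE, hornR]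
  unfold phiY qY
  generalize e1Q u = Z
  generalize e2Q u = E
  push_cast
  ring

/-- the multiplier of the class function of the first argument -/
noncomputable def pA57 (b : Fin 4 → ℝ) : ℝ :=
  1 / 6 * (∑ i, b i ^ 2) - 3 / 100 * (∑ i, b i ^ 3) + 9 / 320 * (∑ i, b i ^ 2) ^ 2 - 7 / 80 * (∑ i, b i ^ 4) + 29 / 2400 * ((∑ i, b i ^ 2) * (∑ i, b i ^ 3))

/-- the multiplier of the class function of the second argument -/
noncomputable def pB57 (a : Fin 4 → ℝ) : ℝ :=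
  1 / 6 * (∑ i, a i ^ 2) - 7 / 600 * (∑ i, a i ^ 3) + 57 / 3200 * (∑ i, a i ^ 2) ^ 2 - 63 / 800 * (∑ i, a i ^ 4) + 37 / 3200 * ((∑ i, a i ^ 2) * (∑ i, a i ^ 3))

def LpA57 : TL :=
  [(873964, 0, 0, 0, 0), (-405769, 1, 0, 0, 0), (49392, 1, 1, 0, 0), (-80948, 2, 0, 0, 0), (-1323, 2, 1, 0, 0),
   (-819, 2, 2, 0, 0), (42875, 3, 0, 0, 0), (-2436, 3, 1, 0, 0), (348, 3, 2, 0, 0), (-4025, 4, 0, 0, 0),
   (116, 5, 0, 0, 0)]

def TpA57 : TG := [(-8470728000000, 0, 0, 1), (-2904249600000, 0, 1, 0), (16134720000000, 1, 0, 0), (1169767200000, 1, 1, 0), (2722734000000, 2, 0, 0)]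

def LpB57 : TL :=
  [(299, 0, 0, 0, 0), (-1028, 1, 0, 0, 0), (216, 1, 1, 0, 0), (-11960, 2, 0, 0, 0), (15120, 2, 1, 0, 0),
   (-31104, 2, 2, 0, 0), (58736, 3, 0, 0, 0), (-42624, 3, 1, 0, 0), (85248, 3, 2, 0, 0), (-72960, 4, 0, 0, 0),
   (28416, 5, 0, 0, 0)]

def TpB57 : TG := [(-1161216, 0, 0, 1), (-172032, 0, 1, 0), (2457600, 1, 0, 0), (170496, 1, 1, 0), (262656, 2, 0, 0)]

set_option maxRecDepth 100000 in
theorem chkTpA57 : chkTK 56 6 5 LpA57 70 70 20 TpA57 = true := by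
  decide +kernel

set_option maxRecDepth 100000 in
theorem goodpA57 : good 5 0 48 (oneE 5 1 10 LpA57) = true := by
  decide +kernel

set_option maxRecDepth 100000 in
theorem bndpA57 : 2 * bnd (oneE 5 1 10 LpA57) < 2 ^ 48 := by
  decide +kernel

set_option maxRecDepth 100000 in
theorem chkpA57 : check 48 6 5 (oneE 5 1 10 LpA57) 0 (6 * 6) = true := by
  decide +kernel

set_option maxRecDepth 100000 in
theorem chkTpB57 : chkTK 32 6 5 LpB57 1 1 4 TpB57 = true := by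
  decide +kernel

set_option maxRecDepth 100000 in
theorem goodpB57 : good 5 0 40 (oneE 5 0 1 LpB57) = true := by
  decide +kernel

set_option maxRecDepth 100000 in
theorem bndpB57 : 2 * bnd (oneE 5 0 1 LpB57) < 2 ^ 40 := by
  decide +kernel

set_option maxRecDepth 100000 in
theorem chkpB57 : check 40 6 5 (oneE 5 0 1 LpB57) 0 (6 * 6) = true := by
  decide +kernel

theorem pA57_nonneg (b : Fin 4 → ℝ) (hb : DT (5 / 7) b) : 0 ≤ pA57 b := by
  have h := sm_nonneg_of_check 48 6 5 1 10 LpA57 (by norm_num) (by norm_num) goodpA57 bndpA57 chkpA57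
    (fun i => 70 * (1 + b i)) 20 (sideT_57 b hb.1 hb.2)
  rw [sm_tgtK 56 6 5 LpA57 70 70 20 TpA57 chkTpA57 b _ _ _ _ _ (by push_cast; ring)
    (by push_cast; ring) (by push_cast; ring) (by push_cast; ring) (by norm_num)] at h
  simp only [TpA57, tgtR] at h
  unfold pA57
  simp only [Fin.sum_univ_four]
  push_cast at h
  linarith

theorem pB57_nonneg (a : Fin 4 → ℝ) (ha : DT 1 a) : 0 ≤ pB57 a := by
  have h := sm_nonneg_of_check 40 6 5 0 1 LpB57 (by norm_num) (by norm_num) goodpB57 bndpB57 chkpB57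
    (fun i => 1 + a i) 4 (sideT_one a ha.1 ha.2)
  rw [sm_tgtK 32 6 5 LpB57 1 1 4 TpB57 chkTpB57 a _ _ _ _ _ (by push_cast; ring)
    (by push_cast; ring) (by push_cast; ring) (by push_cast; ring) (by norm_num)] at h
  simp only [TpB57, tgtR] at h
  unfold pB57
  simp only [Fin.sum_univ_four]
  push_cast at h
  linarith

theorem alQ_four' (a : Fin 4 → ℝ) : alQ a = (a 0 ^ 2 + a 1 ^ 2 + a 2 ^ 2 + a 3 ^ 2) / 12 := by
  unfold alQ
  rw [Fin.sum_univ_four]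
  norm_num

theorem KQ_al_le57 (a b : Fin 4 → ℝ) (ha0 : ∑ i, a i = 0) (ha : ∀ i, -1 ≤ a i)
    (hb : ∀ i, -(5 / 7) ≤ b i) : KQ alQ a b ≤ -phiY (uQ a b) := by
  have hZ : 0 < ZQ a b := ZQ_pos (by norm_num) a b ha0 ha (fun i => by linarith [hb i])
  rw [KQ_al_eq a b hZ]
  rw [ZQ_eq_e1] at hZ
  have hu : ∀ i, 0 ≤ uQ a b i := fun i => by
    unfold uQ
    have h1 : 0 ≤ 1 + a i := by linarith [ha i]
    have h2 : 0 ≤ 1 + b i := by linarith [hb i]
    positivity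
  have h2 : 0 ≤ e2Q (uQ a b) := e2Q_nonneg _ hu
  have h3 := qY_le _ hZ
  have h4 := mul_le_mul_of_nonneg_left h3 h2
  unfold phiY
  have h5 : 8 / 3 * e2Q (uQ a b) / e1Q (uQ a b) = 8 / 3 * (e2Q (uQ a b) * (1 / e1Q (uQ a b))) := by
    ring
  rw [h5]
  linarith

theorem keyX57 (a b : Fin 4 → ℝ) (ha : DT 1 a) (hb : DT (5 / 7) b) :
    avQ (KQ alQ a) b ≤ alQ a + alQ b - pA57 b * ps4 (7 / 4) a - pB57 a * ps4 (7 / 4 / (5 / 7)) b
      - 1 / 50 * (alQ a ^ 2 * alQ b + alQ a * alQ b ^ 2) := by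
  have hm := masterG 128 10 9 0 1 1 10 LdX57 XsX57 XtX57 (by norm_num) (by norm_num) goodX57 bndX57 chkX57
    (fun i => 1 + a i) (fun i => 70 * (1 + b i)) 4 20 (sideT_one a ha.1 ha.2) (sideT_57 b hb.1 hb.2)
  have e : ∀ (σ : Equiv.Perm (Fin 4)) (i : Fin 4),
      (1 + a i) * (70 * (1 + b (σ i))) = 280 * uQ a (fun i => b (σ i)) i := by
    intro σ i
    unfold uQ
    ring
  have e80 : (4 : ℝ) * 20 = 80 := by norm_num
  simp only [e, e80, sm_LdX57, XsX57, XtX57, List.map_cons, List.map_nil, dotRR] at hm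
  rw [sm_tgtK 72 10 9 XsX57_0 1 1 4 TsX57_0 chkSX57_0 a _ _ _ _ _ (by push_cast; ring)
    (by push_cast; ring) (by push_cast; ring) (by push_cast; ring) (by norm_num)] at hm
  rw [sm_tgtK 48 10 9 XtX57_0 70 70 20 TtX57_0 chkTX57_0 b _ _ _ _ _ (by push_cast; ring)
    (by push_cast; ring) (by push_cast; ring) (by push_cast; ring) (by norm_num)] at hm
  rw [sm_tgtK 64 10 9 XsX57_1 1 1 4 TsX57_1 chkSX57_1 a _ _ _ _ _ (by push_cast; ring)
    (by push_cast; ring) (by push_cast; ring) (by push_cast; ring) (by norm_num)] at hm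
  rw [sm_tgtK 56 10 9 XtX57_1 70 70 20 TtX57_1 chkTX57_1 b _ _ _ _ _ (by push_cast; ring)
    (by push_cast; ring) (by push_cast; ring) (by push_cast; ring) (by norm_num)] at hm
  rw [sm_tgtK 56 10 9 XsX57_2 1 1 4 TsX57_2 chkSX57_2 a _ _ _ _ _ (by push_cast; ring)
    (by push_cast; ring) (by push_cast; ring) (by push_cast; ring) (by norm_num)] at hm
  rw [sm_tgtK 72 10 9 XtX57_2 70 70 20 TtX57_2 chkTX57_2 b _ _ _ _ _ (by push_cast; ring)
    (by push_cast; ring) (by push_cast; ring) (by push_cast; ring) (by norm_num)] at hm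
  rw [sm_tgtK 64 10 9 XsX57_3 1 1 4 TsX57_3 chkSX57_3 a _ _ _ _ _ (by push_cast; ring)
    (by push_cast; ring) (by push_cast; ring) (by push_cast; ring) (by norm_num)] at hm
  rw [sm_tgtK 72 10 9 XtX57_3 70 70 20 TtX57_3 chkTX57_3 b _ _ _ _ _ (by push_cast; ring)
    (by push_cast; ring) (by push_cast; ring) (by push_cast; ring) (by norm_num)] at hm
  rw [sm_tgtK 64 10 9 XsX57_4 1 1 4 TsX57_4 chkSX57_4 a _ _ _ _ _ (by push_cast; ring)
    (by push_cast; ring) (by push_cast; ring) (by push_cast; ring) (by norm_num)] at hm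
  rw [sm_tgtK 56 10 9 XtX57_4 70 70 20 TtX57_4 chkTX57_4 b _ _ _ _ _ (by push_cast; ring)
    (by push_cast; ring) (by push_cast; ring) (by push_cast; ring) (by norm_num)] at hm
  rw [sm_tgtK 56 10 9 XsX57_5 1 1 4 TsX57_5 chkSX57_5 a _ _ _ _ _ (by push_cast; ring)
    (by push_cast; ring) (by push_cast; ring) (by push_cast; ring) (by norm_num)] at hm
  rw [sm_tgtK 64 10 9 XtX57_5 70 70 20 TtX57_5 chkTX57_5 b _ _ _ _ _ (by push_cast; ring)
    (by push_cast; ring) (by push_cast; ring) (by push_cast; ring) (by norm_num)] at hm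
  simp only [TsX57_0, TtX57_0, TsX57_1, TtX57_1, TsX57_2, TtX57_2, TsX57_3, TtX57_3, TsX57_4, TtX57_4, TsX57_5, TtX57_5, tgtR] at hm
  have hs : ∑ σ : Equiv.Perm (Fin 4), KQ alQ a (fun i => b (σ i)) ≤
      ∑ σ : Equiv.Perm (Fin 4), -phiY (uQ a (fun i => b (σ i))) :=
    Finset.sum_le_sum fun σ _ => KQ_al_le57 a _ ha.1 ha.2 (fun i => hb.2 (σ i))
  rw [Finset.sum_neg_distrib] at hs
  rw [← Finset.mul_sum] at hm
  unfold avQ
  have h24 : ((Nat.factorial 4 : ℕ) : ℝ) = 24 := by norm_num [Nat.factorial]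
  rw [h24, div_le_iff₀ (by norm_num)]
  unfold pA57 pB57 ps4 m4
  simp only [alQ_four', Fin.sum_univ_four]
  generalize (∑ σ : Equiv.Perm (Fin 4), phiY (uQ a (fun i => b (σ i)))) = S at hm hs
  generalize (∑ σ : Equiv.Perm (Fin 4), KQ alQ a (fun i => b (σ i))) = K at hs
  generalize a 0 ^ 2 + a 1 ^ 2 + a 2 ^ 2 + a 3 ^ 2 = x2 at hm
  generalize a 0 ^ 3 + a 1 ^ 3 + a 2 ^ 3 + a 3 ^ 3 = x3 at hm
  generalize a 0 ^ 4 + a 1 ^ 4 + a 2 ^ 4 + a 3 ^ 4 = x4 at hm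
  generalize b 0 ^ 2 + b 1 ^ 2 + b 2 ^ 2 + b 3 ^ 2 = y2 at hm
  generalize b 0 ^ 3 + b 1 ^ 3 + b 2 ^ 3 + b 3 ^ 3 = y3 at hm
  generalize b 0 ^ 4 + b 1 ^ 4 + b 2 ^ 4 + b 3 ^ 4 = y4 at hm
  push_cast at hm
  linarith

end Vale.Agent.P154.X57
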