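import Vale.Agent.P154.R4K.SmTgt
import Vale.Agent.P154.R4K.SmPit

/-!
# P154 q = 4: the link identities of `SmTgt` through the packed identity check

`sm_tgtK`: `sm D l (c a + e) h = tgtR T (∑ a^2) (∑ a^3) (∑ a^4)`;
`sm_tgtUK`: `sm D l (c u) h = PE.ev u tgt`; expressions `e1E, e2E, e3E, zE`, `hornE`.
-/

namespace Vale.Agent.P154.X57

open Vale.Agent.Util.Polya

/-- power sums as expressions -/
def pwE (n : ℕ) : PE := .add (.add (.pow (.v 0) n) (.pow (.v 1) n)) (.add (.pow (.v 2) n) (.pow (.v 3) n))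

def tgtE : TG → PE
  | [] => .c 0
  | (c, i, j, k) :: T =>
    .add (.mul (.c c) (.mul (.pow (pwE 2) i) (.mul (.pow (pwE 3) j) (.pow (pwE 4) k)))) (tgtE T)

theorem ev_pwE (p : Fin 4 → ℝ) (n : ℕ) :
    PE.ev p (pwE n) = p 0 ^ n + p 1 ^ n + p 2 ^ n + p 3 ^ n := by
  simp only [pwE, PE.ev]
  ring

theorem ev_tgtE (p : Fin 4 → ℝ) (T : TG) :
    PE.ev p (tgtE T) = tgtR T (p 0 ^ 2 + p 1 ^ 2 + p 2 ^ 2 + p 3 ^ 2)
      (p 0 ^ 3 + p 1 ^ 3 + p 2 ^ 3 + p 3 ^ 3) (p 0 ^ 4 + p 1 ^ 4 + p 2 ^ 4 + p 3 ^ 4) := by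
  induction T with
  | nil => simp [tgtE, tgtR, PE.ev]
  | cons t T ih =>
    obtain ⟨c, i, j, k⟩ := t
    simp only [tgtE, tgtR, PE.ev, ev_pwE, ih]

/-- `c * v i + e` -/
def shE (c e : ℤ) (i : Fin 4) : PE := .add (.mul (.c c) (.v i)) (.c e)

/-- the test for `sm_tgtK` -/
def chkTK (w S D : ℕ) (l : TL) (c e hh : ℤ) (T : TG) : Bool :=
  pit4 w S (smE D l (shE c e 0) (shE c e 1) (shE c e 2) (shE c e 3) (.c hh)) (tgtE T)

theorem sm_tgtK (w S D : ℕ) (l : TL) (c e hh : ℤ) (T : TG) (hc : chkTK w S D l c e hh T = true)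
    (a : Fin 4 → ℝ) (x0 x1 x2 x3 h : ℝ) (h0 : x0 = c * a 0 + e) (h1 : x1 = c * a 1 + e)
    (h2 : x2 = c * a 2 + e) (h3 : x3 = c * a 3 + e) (hh' : h = hh) :
    sm D l x0 x1 x2 x3 h = tgtR T (a 0 ^ 2 + a 1 ^ 2 + a 2 ^ 2 + a 3 ^ 2)
      (a 0 ^ 3 + a 1 ^ 3 + a 2 ^ 3 + a 3 ^ 3) (a 0 ^ 4 + a 1 ^ 4 + a 2 ^ 4 + a 3 ^ 4) := by
  have h := sm_eq_of_pit4 w S D l _ _ _ _ _ _ hc a
  rw [ev_tgtE] at h
  rw [← h, h0, h1, h2, h3, hh']
  simp only [shE, PE.ev]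

def e1E : PE := .add (.add (.v 0) (.v 1)) (.add (.v 2) (.v 3))

/-- `e1 - 1` -/
def zE : PE := .add e1E (.c (-1))

def e2E : PE :=
  .add (.add (.add (.mul (.v 0) (.v 1)) (.mul (.v 0) (.v 2))) (.add (.mul (.v 0) (.v 3)) (.mul (.v 1) (.v 2))))
    (.add (.mul (.v 1) (.v 3)) (.mul (.v 2) (.v 3)))

def e3E : PE :=
  .add (.add (.mul (.mul (.v 0) (.v 1)) (.v 2)) (.mul (.mul (.v 0) (.v 1)) (.v 3)))
    (.add (.mul (.mul (.v 0) (.v 2)) (.v 3)) (.mul (.mul (.v 1) (.v 2)) (.v 3)))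

theorem ev_e1E (u : Fin 4 → ℝ) : PE.ev u e1E = e1Q u := by
  simp only [e1E, PE.ev, e1Q]
  ring

theorem ev_zE (u : Fin 4 → ℝ) : PE.ev u zE = e1Q u - 1 := by
  simp only [zE, PE.ev, ev_e1E]
  push_cast
  ring

theorem ev_e2E (u : Fin 4 → ℝ) : PE.ev u e2E = e2Q u := by
  simp only [e2E, PE.ev, e2Q]
  ring

theorem ev_e3E (u : Fin 4 → ℝ) : PE.ev u e3E = e3Q u := by
  simp only [e3E, PE.ev, e3Q]
  ring

/-- Horner scheme -/
def hornE (x : PE) : List ℤ → PE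
  | [] => .c 0
  | a :: l => .add (.c a) (.mul x (hornE x l))

noncomputable def hornR (x : ℝ) : List ℤ → ℝ
  | [] => 0
  | a :: l => (a : ℝ) + x * hornR x l

theorem ev_hornE (p : Fin 4 → ℝ) (x : PE) (l : List ℤ) :
    PE.ev p (hornE x l) = hornR (PE.ev p x) l := by
  induction l with
  | nil => simp [hornE, hornR, PE.ev]
  | cons a l ih => simp only [hornE, hornR, PE.ev, ih]

/-- the test for `sm_tgtUK` -/
def chkUK (w S D : ℕ) (l : TL) (c hh : ℤ) (tgt : PE) : Bool :=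
  pit4 w S (smE D l (.mul (.c c) (.v 0)) (.mul (.c c) (.v 1)) (.mul (.c c) (.v 2))
    (.mul (.c c) (.v 3)) (.c hh)) tgt

theorem sm_tgtUK (w S D : ℕ) (l : TL) (c hh : ℤ) (tgt : PE) (hc : chkUK w S D l c hh tgt = true)
    (u : Fin 4 → ℝ) (x0 x1 x2 x3 h : ℝ) (h0 : x0 = c * u 0) (h1 : x1 = c * u 1)
    (h2 : x2 = c * u 2) (h3 : x3 = c * u 3) (hh' : h = hh) :
    sm D l x0 x1 x2 x3 h = PE.ev u tgt := by
  have h := sm_eq_of_pit4 w S D l _ _ _ _ _ _ hc u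
  rw [← h, h0, h1, h2, h3, hh']
  simp only [PE.ev]

end Vale.Agent.P154.X57
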